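import Vale.Agent.P184.Fin

namespace Vale.Agent.Results.P184.Axial

open Vale.Agent.P184

theorem result (G : Type*) [Group G] (q : ℕ) (e : Fin q → Fin q → G → ℂ) (he : IsIdem e) (g : G)
    (l : G → ℝ) (hl : IsLength l) :
    ((∃ φ : Subgroup.centralizer ({g} : Set G) → ℝ, (∀ z w, φ (z * w) = φ z + φ w) ∧
        φ ⟨g, Subgroup.mem_centralizer_singleton_iff.2 rfl⟩ ≠ 0 ∧ ∀ z, φ z ≤ l z) → tauC e g = 0) ∧
      (Amenable (Subgroup.centralizer ({g} : Set G)) → (∀ n : ℕ, (n : ℝ) ≤ l (g ^ n)) → tauC e g = 0) :=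
  ⟨fun ⟨φ, h1, h2, h3⟩ => char_case he φ h1 h2 hl h3, fun ha h => amen_case he ha hl h⟩

end Vale.Agent.Results.P184.Axial
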