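import Vale.Agent.P184.Fin

namespace Vale.Agent.Results.P184.Groups

open Vale.Agent.P184

theorem result (G : Type*) [Group G]
    (h1 : ∃ T : Set G, T.Finite ∧ ∀ g, IsOfFinOrder g → ∃ t ∈ T, IsConj t g)
    (h2 : ∀ g : G, ¬IsOfFinOrder g → ∃ l : G → ℝ, IsLength l ∧
      ((∃ φ : Subgroup.centralizer ({g} : Set G) → ℝ, (∀ z w, φ (z * w) = φ z + φ w) ∧
        φ ⟨g, Subgroup.mem_centralizer_singleton_iff.2 rfl⟩ ≠ 0 ∧ ∀ z, φ z ≤ l z) ∨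
      (Amenable (Subgroup.centralizer ({g} : Set G)) ∧ ∀ n : ℕ, (n : ℝ) ≤ l (g ^ n))))
    (q : ℕ) (e : Fin q → Fin q → G → ℂ) (he : IsIdem e) :
    ∃ F : Set G, F.Finite ∧ (∀ f ∈ F, IsOfFinOrder f) ∧ ∀ g, (∀ f ∈ F, ¬IsConj f g) → tauC e g = 0 := by
  obtain ⟨T, t1, t2⟩ := h1
  refine ⟨{t ∈ T | IsOfFinOrder t}, t1.subset fun _ h => h.1, fun _ h => h.2, fun g hg => ?_⟩
  by_cases h : IsOfFinOrder g
  · obtain ⟨t, k1, k2⟩ := t2 g h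
    exact absurd k2 (hg t ⟨k1, k2.symm.isOfFinOrder h⟩)
  · obtain ⟨l, hl, ⟨φ, p1, p2, p3⟩ | ⟨a1, a2⟩⟩ := h2 g h
    exacts [char_case he φ p1 p2 hl p3, amen_case he a1 hl a2]

end Vale.Agent.Results.P184.Groups
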